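import Vale.Agent.H19.KuroshVirt

/-!
Kurosh's problem for division algebras that are algebraic over an uncountable central subfield `k`
having a finite extension `K` over which all finite-dimensional division algebras are commutative.
-/

universe u

namespace Vale.Agent.Results.P199.UncountableField

/-- Let `k` be an uncountable field and `K` a finite extension of `k` such that every
finite-dimensional division `K`-algebra is commutative. Let `D` be any division ring which is
algebraic over the central subfield `k`. Then `D` has finite dimension at most `[K : k] ^ 2` over
its centre, and every finite subset of `D` generates a `k`-subalgebra of finite dimension over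
`k`. -/
theorem result (k K D : Type u) [Field k] [Uncountable k] [Field K] [Algebra k K]
    [FiniteDimensional k K]
    (hK : ∀ (Δ : Type u) [DivisionRing Δ] [Algebra K Δ] [Module.Finite K Δ] (x y : Δ),
      x * y = y * x)
    [DivisionRing D] [Algebra k D] [Algebra.IsAlgebraic k D] :
    Module.Finite (Subring.center D) D ∧
      Module.finrank (Subring.center D) D ≤ Module.finrank k K ^ 2 ∧
      ∀ S : Set D, S.Finite → Module.Finite k (Algebra.adjoin k S) :=
  Vale.H19.Kurosh.main k K D hK

end Vale.Agent.Results.P199.UncountableField
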